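import Mathlib

/-!
Helper lemmas for P034: fractional covers with size-wise sparse support.
-/

namespace Vale.Agent.Lib.P034

open Finset

lemma anti_ind (a : ℝ) : Antitone (fun t : ℝ => if t ≤ a then (1:ℝ) else 0) := by
  intro s t hst
  dsimp only
  split_ifs with h1 h2 h2
  · exact le_refl _
  · exact absurd (le_trans hst h1) h2
  · exact zero_le_one
  · exact le_refl _

lemma integral_ind (a : ℝ) (h0 : 0 ≤ a) (h1 : a ≤ 1) :
    ∫ t in (0:ℝ)..1, (if t ≤ a then (1:ℝ) else 0) = a := by
  have h : ∫ t in (0:ℝ)..1, (if t ≤ a then (1:ℝ) else 0)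
      = (∫ t in (0:ℝ)..a, (if t ≤ a then (1:ℝ) else 0))
        + ∫ t in a..1, (if t ≤ a then (1:ℝ) else 0) := by
    rw [intervalIntegral.integral_add_adjacent_intervals]
    · exact (anti_ind a).intervalIntegrable
    · exact (anti_ind a).intervalIntegrable
  rw [h]
  have e1 : ∫ t in (0:ℝ)..a, (if t ≤ a then (1:ℝ) else 0) = ∫ t in (0:ℝ)..a, (1:ℝ) := by
    apply intervalIntegral.integral_congr
    intro t ht
    rw [Set.uIcc_of_le h0] at ht
    simp [ht.2]
  have e2 : ∫ t in a..1, (if t ≤ a then (1:ℝ) else 0) = ∫ t in a..1, (0:ℝ) := by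
    rw [intervalIntegral.integral_of_le h1, intervalIntegral.integral_of_le h1]
    apply MeasureTheory.setIntegral_congr_fun measurableSet_Ioc
    intro t ht
    simp [not_le.mpr ht.1]
  rw [e1, e2]
  simp

/-- Layer-cake comparison: if all the positive level sets compare, the weighted sums compare. -/
lemma layer_cake {ι : Type*} (I J : Finset ι) (g : ι → ℝ) (x y : ℝ)
    (hg0 : ∀ i, 0 ≤ g i) (hg1 : ∀ i, g i ≤ 1)
    (h : ∀ t : ℝ, 0 < t → y * ((J.filter fun j => t ≤ g j).card : ℝ)
        ≤ x * ((I.filter fun i => t ≤ g i).card : ℝ)) :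
    y * ∑ j ∈ J, g j ≤ x * ∑ i ∈ I, g i := by
  have key : ∀ (K : Finset ι) (z : ℝ), z * ∑ j ∈ K, g j
      = ∫ t in (0:ℝ)..1, ∑ j ∈ K, z * (if t ≤ g j then (1:ℝ) else 0) := by
    intro K z
    rw [intervalIntegral.integral_finsetSum, Finset.mul_sum]
    · apply Finset.sum_congr rfl
      intro j _
      rw [intervalIntegral.integral_const_mul, integral_ind _ (hg0 j) (hg1 j)]
    · intro j _
      exact ((anti_ind (g j)).intervalIntegrable).const_mul _
  have hint : ∀ (K : Finset ι) (z : ℝ), IntervalIntegrable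
      (fun t : ℝ => ∑ j ∈ K, z * (if t ≤ g j then (1:ℝ) else 0)) MeasureTheory.volume 0 1 := by
    intro K z
    have := IntervalIntegrable.sum (μ := MeasureTheory.volume) (a := 0) (b := 1) K
      (f := fun j => fun t : ℝ => z * (if t ≤ g j then (1:ℝ) else 0))
      (fun j _ => ((anti_ind (g j)).intervalIntegrable).const_mul _)
    have e : (fun t : ℝ => ∑ j ∈ K, z * (if t ≤ g j then (1:ℝ) else 0))
        = ∑ j ∈ K, (fun j => fun t : ℝ => z * (if t ≤ g j then (1:ℝ) else 0)) j := by
      ext t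
      simp [Finset.sum_apply]
    rw [e]
    exact this
  have conv : ∀ (K : Finset ι) (z t : ℝ), ∑ j ∈ K, z * (if t ≤ g j then (1:ℝ) else 0)
      = z * ((K.filter fun j => t ≤ g j).card : ℝ) := by
    intro K z t
    rw [← Finset.mul_sum, Finset.sum_ite, Finset.sum_const_zero, add_zero, Finset.sum_const,
      nsmul_eq_mul, mul_one]
  rw [key J y, key I x]
  apply intervalIntegral.integral_mono_on_of_le_Ioo zero_le_one (hint J y) (hint I x)
  intro t ht
  rw [conv, conv]
  exact h t ht.1

/-- Greedy extraction of a pairwise disjoint subfamily. -/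
lemma exists_disjoint_subfamily {X : Type*} [DecidableEq X] (χ : ℝ)
    (A : Finset (Finset X)) :
    (∀ S ∈ A, S.Nonempty) →
    (∀ S ∈ A, ((A.filter fun S' => ¬ Disjoint S S').card : ℝ) ≤ χ) →
    ∃ B ⊆ A, (B : Set (Finset X)).PairwiseDisjoint id ∧ (A.card : ℝ) ≤ χ * B.card := by
  induction A using Finset.strongInductionOn with
  | _ A ih =>
    intro hne hdeg
    rcases A.eq_empty_or_nonempty with rfl | ⟨S, hS⟩
    · exact ⟨∅, subset_refl _, by simp, by simp⟩
    · set A' := A.filter fun S' => Disjoint S S' with hA'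
      have hsub : A' ⊆ A := filter_subset _ _
      have hSnot : S ∉ A' := by
        intro h
        have := (mem_filter.mp h).2
        exact (hne S hS).ne_empty (disjoint_self.mp this)
      have hss : A' ⊂ A := ⟨hsub, fun h => hSnot (h hS)⟩
      obtain ⟨B', hB'sub, hB'dis, hB'card⟩ := ih A' hss (fun T hT => hne T (hsub hT))
        (fun T hT => le_trans (by
          exact_mod_cast card_le_card (filter_subset_filter _ hsub)) (hdeg T (hsub hT)))
      have hSB' : S ∉ B' := fun h => hSnot (hB'sub h)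
      refine ⟨insert S B', ?_, ?_, ?_⟩
      · intro T hT
        rcases mem_insert.mp hT with rfl | hT
        · exact hS
        · exact hsub (hB'sub hT)
      · rw [coe_insert]
        apply Set.PairwiseDisjoint.insert hB'dis
        intro T hT _
        exact (mem_filter.mp (hB'sub hT)).2
      · have hsplit : A.card = A'.card + (A.filter fun S' => ¬ Disjoint S S').card := by
          rw [hA']
          exact (card_filter_add_card_filter_not (s := A) (fun S' => Disjoint S S')).symm
        rw [card_insert_of_notMem hSB', hsplit]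
        push_cast
        have := hdeg S hS
        linarith

/-- The sum of a nonnegative function over a `biUnion` is at most the double sum. -/
lemma sum_biUnion_le_of_nonneg {ι κ : Type*} [DecidableEq ι] (s : Finset κ) (t : κ → Finset ι)
    (f : ι → ℝ) (hf : ∀ i, 0 ≤ f i) :
    ∑ x ∈ s.biUnion t, f x ≤ ∑ k ∈ s, ∑ i ∈ t k, f i := by
  classical
  induction s using Finset.induction_on with
  | empty => simp
  | insert a s ha ih =>
    rw [biUnion_insert, sum_insert ha]
    have h1 : ∑ x ∈ t a ∪ s.biUnion t, f x ≤ ∑ x ∈ t a, f x + ∑ x ∈ s.biUnion t, f x := by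
      rw [← sum_union_inter]
      have : 0 ≤ ∑ x ∈ t a ∩ s.biUnion t, f x := sum_nonneg (fun i _ => hf i)
      linarith
    linarith

/-- Numerical bound: `(a m)^m / m! ≤ (a e)^m`. -/
lemma pow_div_factorial_le (a : ℝ) (ha : 0 ≤ a) (m : ℕ) :
    (a * m) ^ m / (m.factorial : ℝ) ≤ (a * (14 / 5)) ^ m := by
  have h1 : (m : ℝ) ^ m / (m.factorial : ℝ) ≤ Real.exp m :=
    Real.pow_div_factorial_le_exp (m : ℝ) (Nat.cast_nonneg m) m
  have h2 : Real.exp (m : ℝ) ≤ (14 / 5 : ℝ) ^ m := by
    rw [← Real.exp_one_pow]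
    apply pow_le_pow_left₀ (Real.exp_pos 1).le
    have := Real.exp_one_lt_d9
    linarith
  calc (a * m) ^ m / (m.factorial : ℝ) = a ^ m * ((m : ℝ) ^ m / (m.factorial : ℝ)) := by
        rw [mul_pow]; ring
    _ ≤ a ^ m * (14 / 5 : ℝ) ^ m := by
        apply mul_le_mul_of_nonneg_left (le_trans h1 h2) (pow_nonneg ha m)
    _ = (a * (14 / 5)) ^ m := by rw [mul_pow]

lemma geom_le (r : ℝ) (h0 : 0 ≤ r) (h1 : r < 1) (n : ℕ) :
    ∑ i ∈ range n, r ^ i ≤ 1 / (1 - r) := by
  rw [geom_sum_eq (ne_of_lt h1)]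
  have h2 : (0:ℝ) < 1 - r := by linarith
  rw [show (r ^ n - 1) / (r - 1) = (1 - r ^ n) / (1 - r) by
    rw [← neg_sub, ← neg_sub (1:ℝ) r, neg_div_neg_eq]]
  apply div_le_div_of_nonneg_right _ h2.le
  have := pow_nonneg h0 n
  linarith

end Vale.Agent.Lib.P034
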