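import Vale.Agent.Lib.P034.Sparse

namespace Vale.Agent.Lib.P034

open Finset

section core

variable {X : Type*} [Fintype X] [DecidableEq X]

/-- level sets -/
noncomputable def lev (g : Finset X → ℝ) (s : ℕ) (t : ℝ) : Finset (Finset X) :=
  univ.filter fun S => S.card = s ∧ t ≤ g S

/-- the top part -/
noncomputable def top (g : Finset X → ℝ) (p C : ℝ) (s m : ℕ) : Finset (Finset X) :=
  univ.filter fun S => S.card = s ∧ p ^ s * ((lev g s (g S)).card : ℝ) ≤ 3 / 5 * C ^ s * m

omit [DecidableEq X] in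
lemma top_card_le (g : Finset X → ℝ) (p C : ℝ) (hp : 0 ≤ p) (hC : 0 ≤ C) (s m : ℕ) :
    p ^ s * ((top g p C s m).card : ℝ) ≤ 3 / 5 * C ^ s * m := by
  rcases (top g p C s m).eq_empty_or_nonempty with h | h
  · rw [h]; simp; positivity
  · obtain ⟨S, hS, hmin⟩ := exists_min_image _ g h
    have hS' := (mem_filter.mp hS).2
    have hsub : top g p C s m ⊆ lev g s (g S) := by
      intro T hT
      have hT' := (mem_filter.mp hT).2
      exact mem_filter.mpr ⟨mem_univ _, hT'.1, hmin T hT⟩
    have : ((top g p C s m).card : ℝ) ≤ ((lev g s (g S)).card : ℝ) := by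
      exact_mod_cast card_le_card hsub
    calc p ^ s * ((top g p C s m).card : ℝ) ≤ p ^ s * ((lev g s (g S)).card : ℝ) :=
          mul_le_mul_of_nonneg_left this (pow_nonneg hp s)
      _ ≤ _ := hS'.2

open Classical in
/-- admissible disjoint subfamilies -/
noncomputable def adm (g : Finset X → ℝ) (p C : ℝ) (s m : ℕ) : Finset (Finset (Finset X)) :=
  (powersetCard m (top g p C s m)).filter fun B => (B : Set (Finset X)).PairwiseDisjoint id

lemma card_union_adm (g : Finset X → ℝ) (p C : ℝ) (s m : ℕ) (B : Finset (Finset X))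
    (hB : B ∈ adm g p C s m) : (B.biUnion id).card = s * m := by
  classical
  rw [adm, mem_filter] at hB
  have h1 := hB.1
  have h2 := hB.2
  have h3 := mem_powersetCard.mp h1
  rw [card_biUnion h2]
  have : ∀ S ∈ B, (id S : Finset X).card = s := fun S hS => (mem_filter.mp (h3.1 hS)).2.1
  rw [sum_congr rfl this, sum_const, h3.2, smul_eq_mul, mul_comm]

lemma cost_adm (g : Finset X → ℝ) (p C : ℝ) (hp : 0 ≤ p) (hC : 1 ≤ C) (s m : ℕ) :
    ∑ B ∈ adm g p C s m, (p / (6 * C)) ^ (B.biUnion id).card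
      ≤ (3 / 5 * (1 / 6) ^ s * (14 / 5)) ^ m := by
  classical
  have hC0 : 0 < C := by linarith
  have hq : 0 ≤ p / (6 * C) := by positivity
  rw [sum_congr rfl (fun B hB => by rw [card_union_adm g p C s m B hB])]
  rw [sum_const, nsmul_eq_mul]
  have hcard : ((adm g p C s m).card : ℝ) ≤ ((top g p C s m).card : ℝ) ^ m / (m.factorial : ℝ) := by
    calc ((adm g p C s m).card : ℝ) ≤ ((powersetCard m (top g p C s m)).card : ℝ) := by
          rw [adm]
          exact_mod_cast card_le_card (filter_subset _ _)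
      _ = (((top g p C s m).card.choose m : ℕ) : ℝ) := by rw [card_powersetCard]
      _ ≤ _ := Nat.choose_le_pow_div m _
  have hT := top_card_le g p C hp hC0.le s m
  have hTq : ((top g p C s m).card : ℝ) * (p / (6 * C)) ^ s ≤ 3 / 5 * (1 / 6) ^ s * m := by
    have e : ((top g p C s m).card : ℝ) * (p / (6 * C)) ^ s
        = (p ^ s * ((top g p C s m).card : ℝ)) * ((1 / 6) ^ s / C ^ s) := by
      rw [show p / (6 * C) = p * ((1 / 6) / C) by field_simp, mul_pow, div_pow]
      ring
    rw [e]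
    have hpos : 0 ≤ (1 / 6 : ℝ) ^ s / C ^ s := by positivity
    calc (p ^ s * ((top g p C s m).card : ℝ)) * ((1 / 6) ^ s / C ^ s)
        ≤ (3 / 5 * C ^ s * m) * ((1 / 6) ^ s / C ^ s) := mul_le_mul_of_nonneg_right hT hpos
      _ = 3 / 5 * (1 / 6) ^ s * m := by
        field_simp
  calc ((adm g p C s m).card : ℝ) * (p / (6 * C)) ^ (s * m)
      ≤ ((top g p C s m).card : ℝ) ^ m / (m.factorial : ℝ) * (p / (6 * C)) ^ (s * m) :=
        mul_le_mul_of_nonneg_right hcard (pow_nonneg hq _)
    _ = (((top g p C s m).card : ℝ) * (p / (6 * C)) ^ s) ^ m / (m.factorial : ℝ) := by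
        rw [mul_pow, ← pow_mul]; ring
    _ ≤ (3 / 5 * (1 / 6) ^ s * m) ^ m / (m.factorial : ℝ) := by
        apply div_le_div_of_nonneg_right _ (Nat.cast_nonneg _)
        apply pow_le_pow_left₀ _ hTq
        positivity
    _ ≤ _ := pow_div_factorial_le _ (by positivity) m

/-- the cover -/
noncomputable def cov (g : Finset X → ℝ) (p C : ℝ) : Finset (Finset X) :=
  (range (Fintype.card X) ×ˢ range (Fintype.card (Finset X))).biUnion fun sm =>
    (adm g p C (sm.1 + 1) (sm.2 + 1)).image fun B => B.biUnion id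

lemma cost_cov (g : Finset X → ℝ) (p C : ℝ) (hp : 0 ≤ p) (hC : 1 ≤ C) :
    ∑ S ∈ cov g p C, (p / (6 * C)) ^ S.card ≤ 1 / 2 := by
  have hC0 : 0 < C := by linarith
  have hq : 0 ≤ p / (6 * C) := by positivity
  have term : ∀ s m : ℕ, (3 / 5 * (1 / 6 : ℝ) ^ (s + 1) * (14 / 5)) ^ (m + 1)
      ≤ (1 / 6 : ℝ) ^ s * ((7 / 25) * (7 / 25 : ℝ) ^ m) := by
    intro s m
    have e : (3 / 5 * (1 / 6 : ℝ) ^ (s + 1) * (14 / 5)) = (7 / 25) * (1 / 6 : ℝ) ^ s := by
      rw [pow_succ]; ring
    rw [e, mul_pow]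
    have h1 : ((1 / 6 : ℝ) ^ s) ^ (m + 1) ≤ (1 / 6 : ℝ) ^ s :=
      pow_le_of_le_one (by positivity) (pow_le_one₀ (by norm_num) (by norm_num)) (Nat.succ_ne_zero m)
    calc (7 / 25 : ℝ) ^ (m + 1) * ((1 / 6 : ℝ) ^ s) ^ (m + 1)
        ≤ (7 / 25 : ℝ) ^ (m + 1) * (1 / 6 : ℝ) ^ s :=
          mul_le_mul_of_nonneg_left h1 (by positivity)
      _ = _ := by rw [pow_succ]; ring
  calc ∑ S ∈ cov g p C, (p / (6 * C)) ^ S.card
      ≤ ∑ sm ∈ range (Fintype.card X) ×ˢ range (Fintype.card (Finset X)),
          ∑ S ∈ (adm g p C (sm.1 + 1) (sm.2 + 1)).image (fun B => B.biUnion id),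
            (p / (6 * C)) ^ S.card :=
        sum_biUnion_le_of_nonneg _ _ _ (fun S => pow_nonneg hq _)
    _ ≤ ∑ sm ∈ range (Fintype.card X) ×ˢ range (Fintype.card (Finset X)),
          (1 / 6 : ℝ) ^ sm.1 * ((7 / 25) * (7 / 25 : ℝ) ^ sm.2) := by
        apply sum_le_sum
        intro sm _
        refine le_trans (sum_image_le_of_nonneg (fun S _ => pow_nonneg hq _)) ?_
        exact le_trans (cost_adm g p C hp hC _ _) (term _ _)
    _ = (∑ s ∈ range (Fintype.card X), (1 / 6 : ℝ) ^ s)
          * ((7 / 25) * ∑ m ∈ range (Fintype.card (Finset X)), (7 / 25 : ℝ) ^ m) := by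
        rw [sum_product, mul_sum, sum_mul_sum]
    _ ≤ (1 / (1 - 1 / 6)) * ((7 / 25) * (1 / (1 - 7 / 25))) := by
        apply mul_le_mul (geom_le _ (by norm_num) (by norm_num) _) _ _ (by norm_num)
        · apply mul_le_mul_of_nonneg_left (geom_le _ (by norm_num) (by norm_num) _) (by norm_num)
        · apply mul_nonneg (by norm_num) (sum_nonneg (fun i _ => by positivity))
    _ ≤ 1 / 2 := by norm_num

lemma level_ineq (g : Finset X → ℝ) (p C : ℝ) (hp : 0 ≤ p) (hC : 1 ≤ C)
    (hsparse : ∀ S, g S ≠ 0 →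
      ((univ.filter fun S' => g S' ≠ 0 ∧ S'.card = S.card ∧ ¬ Disjoint S S').card : ℝ)
        ≤ C ^ S.card)
    (H : Finset X) (hH : ∀ S ∈ cov g p C, ¬ S ⊆ H) (s : ℕ) (t : ℝ) (ht : 0 < t) :
    3 / 5 * ((((H.powerset.filter fun S => S.card = s + 1)).filter fun S => t ≤ g S).card : ℝ)
      ≤ p ^ (s + 1) * ((((univ.filter fun S : Finset X => S.card = s + 1)).filter
          fun S => t ≤ g S).card : ℝ) := by
  classical
  set A := ((H.powerset.filter fun S => S.card = s + 1)).filter fun S => t ≤ g S with hA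
  have hAmem : ∀ S ∈ A, S ⊆ H ∧ S.card = s + 1 ∧ t ≤ g S := by
    intro S hS
    rw [hA, mem_filter, mem_filter, mem_powerset] at hS
    exact ⟨hS.1.1, hS.1.2, hS.2⟩
  have hC0 : 0 < C := by linarith
  rcases A.eq_empty_or_nonempty with h | ⟨S1, hS1⟩
  · rw [h]
    simp only [card_empty, Nat.cast_zero, mul_zero]
    positivity
  · obtain ⟨B, hBA, hBdis, hBcard⟩ := exists_disjoint_subfamily (C ^ (s + 1)) A
      (fun S hS => by
        rw [← card_pos, (hAmem S hS).2.1]; exact Nat.succ_pos s)
      (fun S hS => by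
        have hgS : g S ≠ 0 := by
          have := (hAmem S hS).2.2
          intro h0; rw [h0] at this; linarith
        have h1 := hsparse S hgS
        rw [(hAmem S hS).2.1] at h1
        refine le_trans ?_ h1
        have : (A.filter fun S' => ¬ Disjoint S S') ⊆
            (univ.filter fun S' => g S' ≠ 0 ∧ S'.card = s + 1 ∧ ¬ Disjoint S S') := by
          intro S' hS'
          rw [mem_filter] at hS'
          have h2 := hAmem S' hS'.1
          refine mem_filter.mpr ⟨mem_univ _, ?_, h2.2.1, hS'.2⟩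
          intro h0
          have := h2.2.2
          rw [h0] at this; linarith
        exact_mod_cast card_le_card this)
    have hApos : (0:ℝ) < A.card := by
      exact_mod_cast card_pos.mpr ⟨S1, hS1⟩
    have hBpos : 0 < B.card := by
      rcases Nat.eq_zero_or_pos B.card with h0 | h0
      · rw [h0, Nat.cast_zero, mul_zero] at hBcard; linarith
      · exact h0
    -- B is not contained in the top part
    have hnot : ¬ B ⊆ top g p C (s + 1) B.card := by
      intro hsub
      have hadm : B ∈ adm g p C (s + 1) B.card := by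
        rw [adm, mem_filter, mem_powersetCard]
        exact ⟨⟨hsub, rfl⟩, hBdis⟩
      have hs : s < Fintype.card X := by
        have := card_le_univ S1
        rw [(hAmem S1 hS1).2.1] at this
        omega
      have hm : B.card - 1 < Fintype.card (Finset X) := by
        have := card_le_univ B
        omega
      have hmem : B.biUnion id ∈ cov g p C := by
        rw [cov, mem_biUnion]
        refine ⟨(s, B.card - 1), mem_product.mpr ⟨mem_range.mpr hs, mem_range.mpr hm⟩, ?_⟩
        rw [mem_image]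
        refine ⟨B, ?_, rfl⟩
        have : B.card - 1 + 1 = B.card := by omega
        simp only [this]
        exact hadm
      apply hH _ hmem
      intro x hx
      rw [mem_biUnion] at hx
      obtain ⟨S, hS, hxS⟩ := hx
      exact (hAmem S (hBA hS)).1 hxS
    rw [not_subset] at hnot
    obtain ⟨S0, hS0B, hS0T⟩ := hnot
    have hS0 := hAmem S0 (hBA hS0B)
    have hlarge : 3 / 5 * C ^ (s + 1) * (B.card : ℝ)
        < p ^ (s + 1) * ((lev g (s + 1) (g S0)).card : ℝ) := by
      by_contra hcon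
      apply hS0T
      rw [top, mem_filter]
      exact ⟨mem_univ _, hS0.2.1, not_lt.mp hcon⟩
    have hsub : lev g (s + 1) (g S0) ⊆
        ((univ.filter fun S : Finset X => S.card = s + 1)).filter fun S => t ≤ g S := by
      intro S hS
      rw [lev, mem_filter] at hS
      rw [mem_filter, mem_filter]
      exact ⟨⟨mem_univ _, hS.2.1⟩, le_trans hS0.2.2 hS.2.2⟩
    have hle : ((lev g (s + 1) (g S0)).card : ℝ) ≤
        ((((univ.filter fun S : Finset X => S.card = s + 1)).filter fun S => t ≤ g S).card : ℝ) := by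
      exact_mod_cast card_le_card hsub
    have h3 : p ^ (s + 1) * ((lev g (s + 1) (g S0)).card : ℝ) ≤ p ^ (s + 1) *
        ((((univ.filter fun S : Finset X => S.card = s + 1)).filter fun S => t ≤ g S).card : ℝ) :=
      mul_le_mul_of_nonneg_left hle (pow_nonneg hp _)
    nlinarith

theorem sparse_core (C : ℝ) (hC : 1 ≤ C) (F : Finset (Finset X)) (g : Finset X → ℝ) (p : ℝ)
    (hp : 0 ≤ p) (hg0 : ∀ S, 0 ≤ g S) (hg1 : ∀ S, g S ≤ 1)
    (hcov : ∀ H ∈ F, 1 ≤ ∑ S ∈ H.powerset, g S)
    (hcost : ∑ S : Finset X, g S * p ^ S.card ≤ 1 / 2)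
    (hsparse : ∀ S, g S ≠ 0 →
      ((univ.filter fun S' => g S' ≠ 0 ∧ S'.card = S.card ∧ ¬ Disjoint S S').card : ℝ)
        ≤ C ^ S.card) :
    ∃ G : Finset (Finset X), (∀ H ∈ F, ∃ S ∈ G, S ⊆ H) ∧
      ∑ S ∈ G, (p / (6 * C)) ^ S.card ≤ 1 / 2 := by
  refine ⟨cov g p C, ?_, cost_cov g p C hp hC⟩
  intro H hHF
  by_contra hcon0
  have hcon : ∀ S ∈ cov g p C, ¬ S ⊆ H := fun S hS hsub => hcon0 ⟨S, hS, hsub⟩
  have hlev : ∀ s : ℕ, 3 / 5 * ∑ S ∈ H.powerset.filter (fun S => S.card = s + 1), g S
      ≤ p ^ (s + 1) * ∑ S ∈ univ.filter (fun S : Finset X => S.card = s + 1), g S := by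
    intro s
    apply layer_cake _ _ g _ _ hg0 hg1
    intro t ht
    exact level_ineq g p C hp hC hsparse H hcon s t ht
  set n := Fintype.card X with hn
  have hW : ∑ S ∈ H.powerset, g S
      = ∑ k ∈ range n, ∑ S ∈ H.powerset.filter (fun S => S.card = k + 1), g S + g ∅ := by
    rw [← sum_fiberwise_of_maps_to (s := H.powerset) (t := range (n + 1)) (g := fun S => S.card)
      (fun S _ => mem_range.mpr (Nat.lt_succ_of_le (card_le_univ S))) g, sum_range_succ']
    congr 1
    have : H.powerset.filter (fun S => S.card = 0) = {∅} := by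
      ext S
      simp only [mem_filter, mem_powerset, card_eq_zero, mem_singleton]
      constructor
      · exact fun h => h.2
      · rintro rfl; exact ⟨empty_subset _, rfl⟩
    rw [this, sum_singleton]
  have hK : ∑ S : Finset X, g S * p ^ S.card
      = ∑ k ∈ range n, p ^ (k + 1) * ∑ S ∈ univ.filter (fun S : Finset X => S.card = k + 1), g S
        + g ∅ := by
    rw [← sum_fiberwise_of_maps_to (s := (univ : Finset (Finset X))) (t := range (n + 1))
      (g := fun S => S.card)
      (fun S _ => mem_range.mpr (Nat.lt_succ_of_le (card_le_univ S))) _, sum_range_succ']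
    congr 1
    · apply sum_congr rfl
      intro k _
      rw [mul_sum]
      apply sum_congr rfl
      intro S hS
      rw [(mem_filter.mp hS).2, mul_comm]
    · have : (univ : Finset (Finset X)).filter (fun S => S.card = 0) = {∅} := by
        ext S
        simp only [mem_filter, mem_univ, true_and, card_eq_zero, mem_singleton]
      rw [this, sum_singleton]
      simp
  have hsum : 3 / 5 * ∑ k ∈ range n, ∑ S ∈ H.powerset.filter (fun S => S.card = k + 1), g S
      ≤ ∑ k ∈ range n,
        p ^ (k + 1) * ∑ S ∈ univ.filter (fun S : Finset X => S.card = k + 1), g S := by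
    rw [mul_sum]
    exact sum_le_sum (fun k _ => hlev k)
  have h1 := hcov H hHF
  have h0 := hg0 ∅
  rw [hW] at h1
  rw [hK] at hcost
  linarith

end core

end Vale.Agent.Lib.P034
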