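import Vale.Agent.Lib.P034.SparseCore

namespace Vale.Agent.Lib.P034

open Finset

section core

variable {X : Type*} [Fintype X] [DecidableEq X]

lemma level_ineq_local (g : Finset X → ℝ) (p C : ℝ) (hp : 0 ≤ p) (hC : 1 ≤ C)
    (H : Finset X)
    (hsparse : ∀ S ⊆ H, g S ≠ 0 →
      ((H.powerset.filter fun S' => g S' ≠ 0 ∧ S'.card = S.card ∧ ¬ Disjoint S S').card : ℝ)
        ≤ C ^ S.card)
    (hH : ∀ S ∈ cov g p C, ¬ S ⊆ H) (s : ℕ) (t : ℝ) (ht : 0 < t) :
    3 / 5 * ((((H.powerset.filter fun S => S.card = s + 1)).filter fun S => t ≤ g S).card : ℝ)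
      ≤ p ^ (s + 1) * ((((univ.filter fun S : Finset X => S.card = s + 1)).filter
          fun S => t ≤ g S).card : ℝ) := by
  classical
  set A := ((H.powerset.filter fun S => S.card = s + 1)).filter fun S => t ≤ g S with hA
  have hAmem : ∀ S ∈ A, S ⊆ H ∧ S.card = s + 1 ∧ t ≤ g S := by
    intro S hS
    rw [hA, mem_filter, mem_filter, mem_powerset] at hS
    exact ⟨hS.1.1, hS.1.2, hS.2⟩
  have hC0 : 0 < C := by linarith
  rcases A.eq_empty_or_nonempty with h | ⟨S1, hS1⟩
  · rw [h]
    simp only [card_empty, Nat.cast_zero, mul_zero]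
    positivity
  · obtain ⟨B, hBA, hBdis, hBcard⟩ := exists_disjoint_subfamily (C ^ (s + 1)) A
      (fun S hS => by
        rw [← card_pos, (hAmem S hS).2.1]; exact Nat.succ_pos s)
      (fun S hS => by
        have hgS : g S ≠ 0 := by
          have := (hAmem S hS).2.2
          intro h0; rw [h0] at this; linarith
        have h1 := hsparse S (hAmem S hS).1 hgS
        rw [(hAmem S hS).2.1] at h1
        refine le_trans ?_ h1
        have : (A.filter fun S' => ¬ Disjoint S S') ⊆
            (H.powerset.filter fun S' => g S' ≠ 0 ∧ S'.card = s + 1 ∧ ¬ Disjoint S S') := by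
          intro S' hS'
          rw [mem_filter] at hS'
          have h2 := hAmem S' hS'.1
          refine mem_filter.mpr ⟨mem_powerset.mpr h2.1, ?_, h2.2.1, hS'.2⟩
          intro h0
          have := h2.2.2
          rw [h0] at this; linarith
        exact_mod_cast card_le_card this)
    have hApos : (0:ℝ) < A.card := by
      exact_mod_cast card_pos.mpr ⟨S1, hS1⟩
    have hBpos : 0 < B.card := by
      rcases Nat.eq_zero_or_pos B.card with h0 | h0
      · rw [h0, Nat.cast_zero, mul_zero] at hBcard; linarith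
      · exact h0
    -- B is not contained in the top part
    have hnot : ¬ B ⊆ top g p C (s + 1) B.card := by
      intro hsub
      have hadm : B ∈ adm g p C (s + 1) B.card := by
        rw [adm, mem_filter, mem_powersetCard]
        exact ⟨⟨hsub, rfl⟩, hBdis⟩
      have hs : s < Fintype.card X := by
        have := card_le_univ S1
        rw [(hAmem S1 hS1).2.1] at this
        omega
      have hm : B.card - 1 < Fintype.card (Finset X) := by
        have := card_le_univ B
        omega
      have hmem : B.biUnion id ∈ cov g p C := by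
        rw [cov, mem_biUnion]
        refine ⟨(s, B.card - 1), mem_product.mpr ⟨mem_range.mpr hs, mem_range.mpr hm⟩, ?_⟩
        rw [mem_image]
        refine ⟨B, ?_, rfl⟩
        have : B.card - 1 + 1 = B.card := by omega
        simp only [this]
        exact hadm
      apply hH _ hmem
      intro x hx
      rw [mem_biUnion] at hx
      obtain ⟨S, hS, hxS⟩ := hx
      exact (hAmem S (hBA hS)).1 hxS
    rw [not_subset] at hnot
    obtain ⟨S0, hS0B, hS0T⟩ := hnot
    have hS0 := hAmem S0 (hBA hS0B)
    have hlarge : 3 / 5 * C ^ (s + 1) * (B.card : ℝ)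
        < p ^ (s + 1) * ((lev g (s + 1) (g S0)).card : ℝ) := by
      by_contra hcon
      apply hS0T
      rw [top, mem_filter]
      exact ⟨mem_univ _, hS0.2.1, not_lt.mp hcon⟩
    have hsub : lev g (s + 1) (g S0) ⊆
        ((univ.filter fun S : Finset X => S.card = s + 1)).filter fun S => t ≤ g S := by
      intro S hS
      rw [lev, mem_filter] at hS
      rw [mem_filter, mem_filter]
      exact ⟨⟨mem_univ _, hS.2.1⟩, le_trans hS0.2.2 hS.2.2⟩
    have hle : ((lev g (s + 1) (g S0)).card : ℝ) ≤
        ((((univ.filter fun S : Finset X => S.card = s + 1)).filter fun S => t ≤ g S).card : ℝ) := by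
      exact_mod_cast card_le_card hsub
    have h3 : p ^ (s + 1) * ((lev g (s + 1) (g S0)).card : ℝ) ≤ p ^ (s + 1) *
        ((((univ.filter fun S : Finset X => S.card = s + 1)).filter fun S => t ≤ g S).card : ℝ) :=
      mul_le_mul_of_nonneg_left hle (pow_nonneg hp _)
    nlinarith

theorem sparse_core_local (C : ℝ) (hC : 1 ≤ C) (F : Finset (Finset X)) (g : Finset X → ℝ) (p : ℝ)
    (hp : 0 ≤ p) (hg0 : ∀ S, 0 ≤ g S) (hg1 : ∀ S, g S ≤ 1)
    (hcov : ∀ H ∈ F, 1 ≤ ∑ S ∈ H.powerset, g S)
    (hcost : ∑ S : Finset X, g S * p ^ S.card ≤ 1 / 2)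
    (hsparse : ∀ H ∈ F, ∀ S ⊆ H, g S ≠ 0 →
      ((H.powerset.filter fun S' => g S' ≠ 0 ∧ S'.card = S.card ∧ ¬ Disjoint S S').card : ℝ)
        ≤ C ^ S.card) :
    ∃ G : Finset (Finset X), (∀ H ∈ F, ∃ S ∈ G, S ⊆ H) ∧
      ∑ S ∈ G, (p / (6 * C)) ^ S.card ≤ 1 / 2 := by
  refine ⟨cov g p C, ?_, cost_cov g p C hp hC⟩
  intro H hHF
  by_contra hcon0
  have hcon : ∀ S ∈ cov g p C, ¬ S ⊆ H := fun S hS hsub => hcon0 ⟨S, hS, hsub⟩
  have hlev : ∀ s : ℕ, 3 / 5 * ∑ S ∈ H.powerset.filter (fun S => S.card = s + 1), g S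
      ≤ p ^ (s + 1) * ∑ S ∈ univ.filter (fun S : Finset X => S.card = s + 1), g S := by
    intro s
    apply layer_cake _ _ g _ _ hg0 hg1
    intro t ht
    exact level_ineq_local g p C hp hC H (hsparse H hHF) hcon s t ht
  set n := Fintype.card X with hn
  have hW : ∑ S ∈ H.powerset, g S
      = ∑ k ∈ range n, ∑ S ∈ H.powerset.filter (fun S => S.card = k + 1), g S + g ∅ := by
    rw [← sum_fiberwise_of_maps_to (s := H.powerset) (t := range (n + 1)) (g := fun S => S.card)
      (fun S _ => mem_range.mpr (Nat.lt_succ_of_le (card_le_univ S))) g, sum_range_succ']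
    congr 1
    have : H.powerset.filter (fun S => S.card = 0) = {∅} := by
      ext S
      simp only [mem_filter, mem_powerset, card_eq_zero, mem_singleton]
      constructor
      · exact fun h => h.2
      · rintro rfl; exact ⟨empty_subset _, rfl⟩
    rw [this, sum_singleton]
  have hK : ∑ S : Finset X, g S * p ^ S.card
      = ∑ k ∈ range n, p ^ (k + 1) * ∑ S ∈ univ.filter (fun S : Finset X => S.card = k + 1), g S
        + g ∅ := by
    rw [← sum_fiberwise_of_maps_to (s := (univ : Finset (Finset X))) (t := range (n + 1))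
      (g := fun S => S.card)
      (fun S _ => mem_range.mpr (Nat.lt_succ_of_le (card_le_univ S))) _, sum_range_succ']
    congr 1
    · apply sum_congr rfl
      intro k _
      rw [mul_sum]
      apply sum_congr rfl
      intro S hS
      rw [(mem_filter.mp hS).2, mul_comm]
    · have : (univ : Finset (Finset X)).filter (fun S => S.card = 0) = {∅} := by
        ext S
        simp only [mem_filter, mem_univ, true_and, card_eq_zero, mem_singleton]
      rw [this, sum_singleton]
      simp
  have hsum : 3 / 5 * ∑ k ∈ range n, ∑ S ∈ H.powerset.filter (fun S => S.card = k + 1), g S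
      ≤ ∑ k ∈ range n,
        p ^ (k + 1) * ∑ S ∈ univ.filter (fun S : Finset X => S.card = k + 1), g S := by
    rw [mul_sum]
    exact sum_le_sum (fun k _ => hlev k)
  have h1 := hcov H hHF
  have h0 := hg0 ∅
  rw [hW] at h1
  rw [hK] at hcost
  linarith

end core

end Vale.Agent.Lib.P034
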